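import Vale.Agent.P224.R2.H925.NxR
import Vale.Agent.P224.R2.H807.GBlkT
import Vale.Agent.P224.R2.H535.Box

/-!
From the checked data of one dimension to the near range of a minimal immersion.
-/

namespace Vale.Agent.P224.R2.H577

open MeasureTheory Set Filter Function Real Module Matrix Vale.Agent.P224
  Vale.Agent.P224.R2.H820 Vale.Agent.P224.R2.H582 Vale.Agent.P224.R2.H627
  Vale.Agent.P224.R2.H728 Vale.Agent.P224.R2.H484 Vale.Agent.P224.R2.H925
open Vale.Agent.P224.SM2 hiding ker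
open Vale.Agent.P224.R2.H684 (nearX)
open Vale.Agent.P224.R2.H807 (EntT entT)
open Vale.Agent.P224.R2.H176 (NearData NearOut)
open scoped Topology RealInnerProductSpace ContDiff Manifold

set_option linter.unusedSectionVars false

/-- the check of the box: nothing is left in even dimension, `H`, `D` bound the box in odd
dimension -/
def parB (H D : ℕ → ℚ) (m : ℕ) (p : ParQ) : Bool :=
  if m % 2 = 0 then decide (p.gp = 0) && decide (p.h1 < 0)
  else decide (1 / (3 * (m : ℚ) ^ 3) ≤ p.gp) && decide (p.gp < 1) && decide (p.h1 ≤ H m)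
    && decide (p.d1 ≤ D m)

/-- the checked data of one dimension -/
structure EntX where
  m : ℕ
  nums : List NumE
  p : ParQ
  laws : List LawQ
  els : List (ElQ × ℚ × ℚ)
  cols : List ColQ

/-- the entry is checked, first form of the table -/
def entXOK (B : BlkQ) (ν : ℚ) (H D : ℕ → ℚ) (e : EntX) : Bool :=
  inOK B e.m e.nums e.p e.laws && nearX e.p e.laws (e.els.map Prod.fst) e.cols
    && e7All e.p.m e.els && decide (ν ≤ e.p.ν) && parB H D e.m e.p

/-- the entry is checked, second form of the table -/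
def entTOK (B : BlkQ) (ν : ℚ) (H D : ℕ → ℚ) (e : EntT) : Bool :=
  entT B e && decide (ν ≤ e.p.ν) && parB H D e.m e.p

/-- the output of the near range of a block of dimensions -/
def NearU (V : Type*) {W M : Type*}
    [NormedAddCommGroup V] [InnerProductSpace ℝ V] [FiniteDimensional ℝ V]
    [NormedAddCommGroup W] [InnerProductSpace ℝ W] [FiniteDimensional ℝ W]
    [TopologicalSpace M] [ChartedSpace V M] [MeasurableSpace V] [BorelSpace V]
    [MeasurableSpace M] (ν : ℝ) (H D : ℕ → ℚ) (F : M → W) : Prop :=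
  ∃ p : ParQ, p.m = finrank ℝ V ∧ (Even (finrank ℝ V) → p.gp = 0 ∧ p.h1 < 0) ∧
    (Odd (finrank ℝ V) → 1 / (3 * (finrank ℝ V : ℝ) ^ 3) ≤ p.gp ∧ p.gp < 1 ∧
      p.h1 ≤ H (finrank ℝ V) ∧ p.d1 ≤ D (finrank ℝ V)) ∧
    ∀ (N : M → W) (b : OrthonormalBasis (Fin (finrank ℝ W)) ℝ W)
      (j : Fin (finrank ℝ W) → ℝ), NearData V F N b j ν →
      NearOut V F N b j p.gp p.h1 p.d1

section

variable {V W M : Type*} [NormedAddCommGroup V] [InnerProductSpace ℝ V] [FiniteDimensional ℝ V]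
  [NormedAddCommGroup W] [InnerProductSpace ℝ W] [FiniteDimensional ℝ W]
  [TopologicalSpace M] [ChartedSpace V M]
  [MeasurableSpace V] [BorelSpace V] [MeasurableSpace M] [BorelSpace M]
  [MeasurableSpace W] [BorelSpace W] [IsManifold 𝓘(ℝ, V) ∞ M]
  [CompactSpace M] [T2Space M]

lemma nearU_of {ν : ℝ} {H D : ℕ → ℚ} {m : ℕ} {p : ParQ} (hp : parB H D m p = true)
    (hpm : p.m = m) (hm : m = finrank ℝ V) {F : M → W}
    (h : ∀ (N : M → W) (b : OrthonormalBasis (Fin (finrank ℝ W)) ℝ W)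
      (j : Fin (finrank ℝ W) → ℝ), NearData V F N b j ν →
      NearOut V F N b j p.gp p.h1 p.d1) : NearU V ν H D F := by
  subst hm
  refine ⟨p, hpm, fun hev => ?_, fun hod => ?_, h⟩
  · unfold parB at hp
    rw [if_pos (Nat.even_iff.1 hev)] at hp
    simp only [Bool.and_eq_true, decide_eq_true_eq] at hp
    exact hp
  · unfold parB at hp
    rw [if_neg (by have := Nat.odd_iff.1 hod; omega)] at hp
    simp only [Bool.and_eq_true, decide_eq_true_eq] at hp
    obtain ⟨⟨⟨k1, k2⟩, k3⟩, k4⟩ := hp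
    refine ⟨?_, k2, k3, k4⟩
    have h := (Rat.cast_le (K := ℝ)).2 k1
    push_cast at h
    exact h

lemma inOK_m {B : BlkQ} {m : ℕ} {nums : List NumE} {p : ParQ} {laws : List LawQ}
    (h : inOK B m nums p laws = true) : p.m = m := by
  simp only [inOK, parE, Bool.and_eq_true, decide_eq_true_eq] at h
  exact h.1.1.2.1.1.1.1.1

/-- **the near range of one dimension from a checked entry**, first form of the table -/
theorem nearU_X [Nonempty M] {c1 c2 : ℚ} (hc2 : 3 ≤ c2) (hc : 4 / 3 * c2 ≤ c1)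
    (hc1 : c1 ≤ 94 / 5) {ab : ℚ} {rels : List (ℚ × ℚ)} {ν : ℚ} {H D : ℕ → ℚ} {e : EntX}
    (he : entXOK (blkX c1 ab (rels ++ [relFree])) ν H D e = true)
    (hmm : e.m = finrank ℝ V) (hW : finrank ℝ W = finrank ℝ V + 2)
    {F : M → W} (hF : SphImm V F) (hmin : ∀ x n, IsUnitNormal V F x n → meanCurv V F x n = 0)
    (ha : AdmF e.m (lamX c1 c2))
    {m1 : ℕ} {x : ℚ} (hab : absOKg 200 wR m1 x (lcG kR c1 c2) ab = true) (h17 : 17 ≤ m1)
    (hm1 : m1 ≤ e.m) (h1000 : e.m ≤ 1000) (hx : (x : ℝ) ≤ 1 / e.m)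
    (hrel : H925.RelU c1 c2 V W M rels ν e.m F) : NearU V ν H D F := by
  simp only [entXOK, Bool.and_eq_true, decide_eq_true_eq] at he
  obtain ⟨⟨⟨⟨h1, h2⟩, h3⟩, h4⟩, h5⟩ := he
  exact nearU_of h5 (inOK_m h1) hmm fun N b j hd =>
    near_XXR hc2 hc hc1 h1 h2 h3 hmm hW hF hmin ha hab h17 hm1 h1000 hx
      ((Rat.cast_le (K := ℝ)).2 h4) hrel N b j hd

/-- the entry of the dimension in a list of entries -/
lemma ent_mem {E : Type*} {ents : List E} {f : E → ℕ} {a n m : ℕ}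
    (hms : ents.map f = List.range' a n) (h1 : a ≤ m) (h2 : m < a + n) :
    ∃ e ∈ ents, f e = m := by
  have hmem : m ∈ ents.map f := by
    rw [hms, List.mem_range'_1]
    exact ⟨h1, h2⟩
  exact List.mem_map.1 hmem

/-- **the near range of a block**, first form of the table -/
theorem nearU_tabX [Nonempty M] {c1 c2 : ℚ} (hc2 : 3 ≤ c2) (hc : 4 / 3 * c2 ≤ c1)
    (hc1 : c1 ≤ 94 / 5) {ab : ℚ} {rels : List (ℚ × ℚ)} {ν : ℚ} {H D : ℕ → ℚ}
    {ents : List EntX} {a n : ℕ} (hms : ents.map EntX.m = List.range' a n)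
    (h1 : a ≤ finrank ℝ V) (h2 : finrank ℝ V < a + n)
    (hents : ∀ e ∈ ents, entXOK (blkX c1 ab (rels ++ [relFree])) ν H D e = true)
    (hW : finrank ℝ W = finrank ℝ V + 2)
    {F : M → W} (hF : SphImm V F) (hmin : ∀ x n, IsUnitNormal V F x n → meanCurv V F x n = 0)
    (ha : ∀ m, a ≤ m → AdmF m (lamX c1 c2))
    {m1 : ℕ} {x : ℚ} (hab : absOKg 200 wR m1 x (lcG kR c1 c2) ab = true) (h17 : 17 ≤ m1)
    (hm1 : m1 ≤ a) {m2 : ℕ} (hm2 : a + n ≤ m2 + 1) (h1000 : m2 ≤ 1000) (hx : x * m2 ≤ 1)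
    (hx0 : 0 ≤ x) (hrel : H925.RelU c1 c2 V W M rels ν (finrank ℝ V) F) : NearU V ν H D F := by
  obtain ⟨e, he, hem⟩ := ent_mem hms h1 h2
  refine nearU_X hc2 hc hc1 (hents e he) hem hW hF hmin (ha _ (by omega)) hab h17 (by omega)
    (by omega) ?_ (by rw [hem]; exact hrel)
  have hm0 : (0 : ℝ) < e.m := by
    have : 0 < e.m := by omega
    exact_mod_cast this
  rw [le_div_iff₀ hm0]
  have h3 : (e.m : ℝ) ≤ m2 := by
    have : e.m ≤ m2 := by omega
    exact_mod_cast this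
  have h4 : (x : ℝ) * m2 ≤ 1 := by exact_mod_cast hx
  have h5 : (0 : ℝ) ≤ x := by exact_mod_cast hx0
  exact (mul_le_mul_of_nonneg_left h3 h5).trans h4

end

end Vale.Agent.P224.R2.H577
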