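import Vale.Agent.P224.R2.H60.EvenFA

/-!
The sharp volume bound in one dimension as a proposition, and the final case distinction.
-/

namespace Vale.Agent.P224.R2.H577

open MeasureTheory Set Module Vale.Agent.P224
open scoped Topology RealInnerProductSpace ContDiff Manifold ENNReal

universe u v w

/-- **The sharp volume bound in dimension `m`**: every smooth minimal immersion of a closed
connected manifold of dimension `m` into the unit sphere of a space of dimension `m + 2`, whose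
image is not totally geodesic, has at least the least volume of the minimal Clifford products. -/
def Sharp (m : ℕ) : Prop :=
  ∀ (V : Type u) (W : Type v) (M : Type w)
    [NormedAddCommGroup V] [InnerProductSpace ℝ V] [FiniteDimensional ℝ V]
    [MeasurableSpace V] [BorelSpace V]
    [NormedAddCommGroup W] [InnerProductSpace ℝ W] [FiniteDimensional ℝ W]
    [MeasurableSpace W] [BorelSpace W]
    [TopologicalSpace M] [T2Space M] [CompactSpace M] [ConnectedSpace M]
    [ChartedSpace V M] [IsManifold 𝓘(ℝ, V) ∞ M] [MeasurableSpace M] [BorelSpace M],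
    finrank ℝ V = m → finrank ℝ W = finrank ℝ V + 2 →
    ∀ F : M → W, SphImm V F → (∀ x n, IsUnitNormal V F x n → meanCurv V F x n = 0) →
      (¬ ∃ a : W, a ≠ 0 ∧ ∀ x, ⟪F x, a⟫ = 0) →
      ENNReal.ofReal (leastClifford (finrank ℝ V)) ≤ volM V F univ

/-- **The final case distinction.** -/
theorem full_of (h2 : Sharp.{u, v, w} 2)
    (h16 : ∀ m, 3 ≤ m → m ≤ 16 → Sharp.{u, v, w} m)
    (h36 : ∀ m, 17 ≤ m → m ≤ 36 → Sharp.{u, v, w} m)
    (hev : ∀ k, 37 ≤ 2 * k → Sharp.{u, v, w} (2 * k))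
    (hod : ∀ k, 37 ≤ 2 * k + 1 → Sharp.{u, v, w} (2 * k + 1))
    (m : ℕ) (hm : 2 ≤ m) : Sharp.{u, v, w} m := by
  rcases eq_or_lt_of_le hm with rfl | h
  · exact h2
  rcases le_or_gt m 16 with h1 | h1
  · exact h16 m (by omega) h1
  rcases le_or_gt m 36 with h3 | h3
  · exact h36 m (by omega) h3
  rcases Nat.even_or_odd' m with ⟨k, rfl | rfl⟩
  · exact hev k (by omega)
  · exact hod k (by omega)

/-- the statement of the hand-in -/
theorem of_sharp (h : ∀ m, 2 ≤ m → Sharp.{u, v, w} m) {V : Type u} {W : Type v} {M : Type w}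
    [NormedAddCommGroup V] [InnerProductSpace ℝ V] [FiniteDimensional ℝ V]
    [MeasurableSpace V] [BorelSpace V]
    [NormedAddCommGroup W] [InnerProductSpace ℝ W] [FiniteDimensional ℝ W]
    (hV : 2 ≤ finrank ℝ V) (hW : finrank ℝ W = finrank ℝ V + 2)
    [TopologicalSpace M] [T2Space M] [CompactSpace M] [ConnectedSpace M]
    [ChartedSpace V M] [IsManifold 𝓘(ℝ, V) ∞ M] [MeasurableSpace M] [BorelSpace M]
    (F : M → W) (hF : ContMDiff 𝓘(ℝ, V) 𝓘(ℝ, W) ∞ F) (hS : ∀ x, ‖F x‖ = 1)
    (himm : ∀ x, Function.Injective (mfderiv 𝓘(ℝ, V) 𝓘(ℝ, W) F x))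
    (hmin : ∀ x n, IsUnitNormal V F x n → meanCurv V F x n = 0)
    (hng : ¬ ∃ a : W, a ≠ 0 ∧ ∀ x, ⟪F x, a⟫ = 0) :
    ENNReal.ofReal (leastClifford (finrank ℝ V)) ≤ volM V F univ := by
  borelize W
  exact h _ hV V W M rfl hW F ⟨hF, hS, himm⟩ hmin hng

end Vale.Agent.P224.R2.H577
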