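import Vale.Agent.P224.R2.H925.NxR

/-!
Lists of relative tails from single ones.
-/

namespace Vale.Agent.P224.R2.H577

open MeasureTheory Set Filter Function Real Module Matrix Vale.Agent.P224
  Vale.Agent.P224.R2.H820 Vale.Agent.P224.R2.H582 Vale.Agent.P224.R2.H627
  Vale.Agent.P224.R2.H728 Vale.Agent.P224.R2.H484 Vale.Agent.P224.R2.H925
open Vale.Agent.P224.SM2 hiding ker
open Vale.Agent.P224.R2.H176 (NearData NearOut)
open scoped Topology RealInnerProductSpace ContDiff Manifold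

set_option linter.unusedSectionVars false

section

variable {V W M : Type*} [NormedAddCommGroup V] [InnerProductSpace ℝ V] [FiniteDimensional ℝ V]
  [NormedAddCommGroup W] [InnerProductSpace ℝ W] [FiniteDimensional ℝ W]
  [TopologicalSpace M] [ChartedSpace V M]
  [MeasurableSpace V] [BorelSpace V] [MeasurableSpace M] [BorelSpace M]
  [MeasurableSpace W] [BorelSpace W] [IsManifold 𝓘(ℝ, V) ∞ M] [CompactSpace M]

lemma relU_nil {c1 c2 : ℚ} {ν : ℝ} {m : ℕ} {F : M → W} : H925.RelU c1 c2 V W M [] ν m F :=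
  fun _ _ _ _ _ hk => absurd hk (List.not_mem_nil)

lemma relU_cons {c1 c2 : ℚ} {ν : ℝ} {m : ℕ} {F : M → W} {k : ℚ × ℚ} {rels : List (ℚ × ℚ)}
    (h1 : H925.RelU c1 c2 V W M [k] ν m F) (h2 : H925.RelU c1 c2 V W M rels ν m F) :
    H925.RelU c1 c2 V W M (k :: rels) ν m F := by
  intro N b j hd q hq hj
  rcases List.mem_cons.1 hq with rfl | hq
  · exact h1 N b j hd q (List.mem_singleton_self _) hj
  · exact h2 N b j hd q hq hj

/-- a pair may be weakened -/
lemma relU_mono {c1 c2 : ℚ} {ν : ℝ} {m : ℕ} {F : M → W} (hF : SphImm V F) {k k' : ℚ × ℚ}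
    (h : H925.RelU c1 c2 V W M [k'] ν m F) (h1 : k.1 ≤ k'.1) (h2 : k'.2 ≤ k.2) :
    H925.RelU c1 c2 V W M [k] ν m F := by
  have hfin : IsFiniteMeasure (volM V F) := isFiniteMeasure_volM hF
  intro N b j hd q hq hj
  rw [List.mem_singleton] at hq
  subst hq
  have e1 : (q.1 : ℝ) ≤ k'.1 := by exact_mod_cast h1
  have e2 : (k'.2 : ℝ) ≤ q.2 := by exact_mod_cast h2
  have hm : (0 : ℝ) ≤ (m : ℝ) + 1 := by positivity
  exact absTail_mono (h N b j hd k' (List.mem_singleton_self _)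
    fun a => (hj a).trans (mul_le_mul_of_nonneg_right e1 hm))
    (mul_le_mul_of_nonneg_right e2 (hd.t0.hh_nonneg (diagonal j)))

lemma relU_nu {c1 c2 : ℚ} {ν ν' : ℝ} {m : ℕ} {F : M → W} {rels : List (ℚ × ℚ)}
    (h : H925.RelU c1 c2 V W M rels ν m F) (hν : ν' ≤ ν) :
    H925.RelU c1 c2 V W M rels ν' m F :=
  fun N b j hd => h N b j
    ⟨hd.smooth, hd.unit, hd.inj, hd.t0, hd.lsq, hd.mean.trans_le hν⟩

end

end Vale.Agent.P224.R2.H577
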