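import Vale.Agent.P224.R2.H577.NB
import Vale.Agent.P224.R2.H179.E36

/-!
The near range on the dimensions `36 ≤ m ≤ 40`.
-/

namespace Vale.Agent.P224.R2.H577

open MeasureTheory Set Filter Function Real Module Matrix Vale.Agent.P224
  Vale.Agent.P224.R2.H820 Vale.Agent.P224.R2.H582 Vale.Agent.P224.R2.H627
  Vale.Agent.P224.R2.H728 Vale.Agent.P224.R2.H484 Vale.Agent.P224.R2.H925
open Vale.Agent.P224.SM2 hiding ker
open Vale.Agent.P224.R2.H535 (boxH boxD)
open scoped Topology RealInnerProductSpace ContDiff Manifold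

set_option linter.unusedSectionVars false

section

variable {V W M : Type*} [NormedAddCommGroup V] [InnerProductSpace ℝ V] [FiniteDimensional ℝ V]
  [NormedAddCommGroup W] [InnerProductSpace ℝ W] [FiniteDimensional ℝ W]
  [TopologicalSpace M] [ChartedSpace V M]
  [MeasurableSpace V] [BorelSpace V] [MeasurableSpace M] [BorelSpace M]
  [MeasurableSpace W] [BorelSpace W] [IsManifold 𝓘(ℝ, V) ∞ M]
  [CompactSpace M] [T2Space M]

/-- **the near range**, `36 ≤ m ≤ 40`, from the relative tails -/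
theorem near_36_40 [Nonempty M] (h1 : 36 ≤ finrank ℝ V) (h2 : finrank ℝ V ≤ 40)
    (hW : finrank ℝ W = finrank ℝ V + 2)
    {F : M → W} (hF : SphImm V F) (hmin : ∀ x n, IsUnitNormal V F x n → meanCurv V F x n = 0)
    (hrel : H925.RelU (91 / 5 : ℚ) (61 / 5 : ℚ) V W M H179.E36.rels36 ((3 / 100 : ℚ) : ℝ)
      (finrank ℝ V) F) : NearU V ((3 / 100 : ℚ) : ℝ) boxH boxD F := by
  exact nearU_36 H179.E36.ents_m (by norm_num) (by norm_num) H179.E36.ents_ok (by omega) (by omega)
    hW hF hmin hrel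

end

end Vale.Agent.P224.R2.H577
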