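import Vale.Agent.P224.R2.H577.NC
import Vale.Agent.P224.R2.H179.E100
import Vale.Agent.P224.R2.H179.E110
import Vale.Agent.P224.R2.H179.E120
import Vale.Agent.P224.R2.H179.E130
import Vale.Agent.P224.R2.H684.AbsC4

/-!
The near range on the dimensions `100 ≤ m ≤ 139`.
-/

namespace Vale.Agent.P224.R2.H577

open MeasureTheory Set Filter Function Real Module Matrix Vale.Agent.P224
  Vale.Agent.P224.R2.H820 Vale.Agent.P224.R2.H582 Vale.Agent.P224.R2.H627
  Vale.Agent.P224.R2.H728 Vale.Agent.P224.R2.H484 Vale.Agent.P224.R2.H925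
open Vale.Agent.P224.SM2 hiding ker
open Vale.Agent.P224.R2.H535 (boxH boxD)
open scoped Topology RealInnerProductSpace ContDiff Manifold

set_option linter.unusedSectionVars false

section

variable {V W M : Type*} [NormedAddCommGroup V] [InnerProductSpace ℝ V] [FiniteDimensional ℝ V]
  [NormedAddCommGroup W] [InnerProductSpace ℝ W] [FiniteDimensional ℝ W]
  [TopologicalSpace M] [ChartedSpace V M]
  [MeasurableSpace V] [BorelSpace V] [MeasurableSpace M] [BorelSpace M]
  [MeasurableSpace W] [BorelSpace W] [IsManifold 𝓘(ℝ, V) ∞ M]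
  [CompactSpace M] [T2Space M]

/-- **the near range**, `100 ≤ m ≤ 139`, from the relative tails -/
theorem near_100_139 [Nonempty M] (h1 : 100 ≤ finrank ℝ V) (h2 : finrank ℝ V ≤ 139)
    (hW : finrank ℝ W = finrank ℝ V + 2)
    {F : M → W} (hF : SphImm V F) (hmin : ∀ x n, IsUnitNormal V F x n → meanCurv V F x n = 0)
    (hrel : H925.RelU (96 / 5 : ℚ) (53 / 4 : ℚ) V W M [(1 / 20, 7 / 500), (17 / 200, 11 / 500), (11 / 100, 2 / 25)] ((21 / 2000 : ℚ) : ℝ)
      (finrank ℝ V) F) : NearU V ((21 / 2000 : ℚ) : ℝ) boxH boxD F := by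
  rcases le_or_gt (finrank ℝ V) 109 with h | h
  · exact nearU_C H179.E100.ents_m H179.E100.ents_ok H684.okC_100_140
      (by norm_num) (by norm_num) (m2 := 140) (by norm_num)
      (by norm_num) (by norm_num) (by norm_num) (by omega) (by omega) hW hF hmin hrel
  rcases le_or_gt (finrank ℝ V) 119 with h | h
  · exact nearU_C H179.E110.ents_m H179.E110.ents_ok H684.okC_100_140
      (by norm_num) (by norm_num) (m2 := 140) (by norm_num)
      (by norm_num) (by norm_num) (by norm_num) (by omega) (by omega) hW hF hmin hrel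
  rcases le_or_gt (finrank ℝ V) 129 with h | h
  · exact nearU_C H179.E120.ents_m H179.E120.ents_ok H684.okC_100_140
      (by norm_num) (by norm_num) (m2 := 140) (by norm_num)
      (by norm_num) (by norm_num) (by norm_num) (by omega) (by omega) hW hF hmin hrel
  exact nearU_C H179.E130.ents_m H179.E130.ents_ok H684.okC_100_140
    (by norm_num) (by norm_num) (m2 := 140) (by norm_num)
    (by norm_num) (by norm_num) (by norm_num) (by omega) (by omega) hW hF hmin hrel

end

end Vale.Agent.P224.R2.H577
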