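import Vale.Agent.P224.R2.H577.NC
import Vale.Agent.P224.R2.H253.B200
import Vale.Agent.P224.R2.H253.B210
import Vale.Agent.P224.R2.H253.B220
import Vale.Agent.P224.R2.H684.AbsC1

/-!
The near range on the dimensions `200 ≤ m ≤ 229`.
-/

namespace Vale.Agent.P224.R2.H577

open MeasureTheory Set Filter Function Real Module Matrix Vale.Agent.P224
  Vale.Agent.P224.R2.H820 Vale.Agent.P224.R2.H582 Vale.Agent.P224.R2.H627
  Vale.Agent.P224.R2.H728 Vale.Agent.P224.R2.H484 Vale.Agent.P224.R2.H925
open Vale.Agent.P224.SM2 hiding ker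
open Vale.Agent.P224.R2.H535 (boxH boxD)
open scoped Topology RealInnerProductSpace ContDiff Manifold

set_option linter.unusedSectionVars false

/-- the absolute tail of the block -/
lemma ab_200_229 : absOKg 200 wR 200 (1 / (230 : ℕ)) (lcG kR (96 / 5) (53 / 4)) (93 / 2000000) = true := by
  rw [show (93 / 2000000 : ℚ) = 465 / 10000000 by norm_num]
  exact H684.okC_200_230

section

variable {V W M : Type*} [NormedAddCommGroup V] [InnerProductSpace ℝ V] [FiniteDimensional ℝ V]
  [NormedAddCommGroup W] [InnerProductSpace ℝ W] [FiniteDimensional ℝ W]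
  [TopologicalSpace M] [ChartedSpace V M]
  [MeasurableSpace V] [BorelSpace V] [MeasurableSpace M] [BorelSpace M]
  [MeasurableSpace W] [BorelSpace W] [IsManifold 𝓘(ℝ, V) ∞ M]
  [CompactSpace M] [T2Space M]

/-- **the near range**, `200 ≤ m ≤ 229`, from the relative tails -/
theorem near_200_229 [Nonempty M] (h1 : 200 ≤ finrank ℝ V) (h2 : finrank ℝ V ≤ 229)
    (hW : finrank ℝ W = finrank ℝ V + 2)
    {F : M → W} (hF : SphImm V F) (hmin : ∀ x n, IsUnitNormal V F x n → meanCurv V F x n = 0)
    (hrel : H925.RelU (96 / 5 : ℚ) (53 / 4 : ℚ) V W M [(1 / 20, 3 / 200), (17 / 200, 1 / 50), (3 / 25, 3 / 100), (4 / 25, 9 / 100)] ((59 / 10000 : ℚ) : ℝ)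
      (finrank ℝ V) F) : NearU V ((59 / 10000 : ℚ) : ℝ) boxH boxD F := by
  rcases le_or_gt (finrank ℝ V) 209 with h | h
  · exact nearU_KC H253.B200.ents_m H253.B200.ents_ok ab_200_229
      (by norm_num) (by norm_num) (m2 := 230) (by norm_num)
      (by norm_num) (by norm_num) (by norm_num) (by omega) (by omega) hW hF hmin hrel
  rcases le_or_gt (finrank ℝ V) 219 with h | h
  · exact nearU_KC H253.B210.ents_m H253.B210.ents_ok ab_200_229
      (by norm_num) (by norm_num) (m2 := 230) (by norm_num)
      (by norm_num) (by norm_num) (by norm_num) (by omega) (by omega) hW hF hmin hrel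
  exact nearU_KC H253.B220.ents_m H253.B220.ents_ok ab_200_229
    (by norm_num) (by norm_num) (m2 := 230) (by norm_num)
    (by norm_num) (by norm_num) (by norm_num) (by omega) (by omega) hW hF hmin hrel

end

end Vale.Agent.P224.R2.H577
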