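import Vale.Agent.P224.R2.H577.NC
import Vale.Agent.P224.R2.H179.E300
import Vale.Agent.P224.R2.H179.E310
import Vale.Agent.P224.R2.H179.E320
import Vale.Agent.P224.R2.H179.E330
import Vale.Agent.P224.R2.H179.E340
import Vale.Agent.P224.R2.H684.AbsC2

/-!
The near range on the dimensions `300 ≤ m ≤ 349`.
-/

namespace Vale.Agent.P224.R2.H577

open MeasureTheory Set Filter Function Real Module Matrix Vale.Agent.P224
  Vale.Agent.P224.R2.H820 Vale.Agent.P224.R2.H582 Vale.Agent.P224.R2.H627
  Vale.Agent.P224.R2.H728 Vale.Agent.P224.R2.H484 Vale.Agent.P224.R2.H925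
open Vale.Agent.P224.SM2 hiding ker
open Vale.Agent.P224.R2.H535 (boxH boxD)
open scoped Topology RealInnerProductSpace ContDiff Manifold

set_option linter.unusedSectionVars false

section

variable {V W M : Type*} [NormedAddCommGroup V] [InnerProductSpace ℝ V] [FiniteDimensional ℝ V]
  [NormedAddCommGroup W] [InnerProductSpace ℝ W] [FiniteDimensional ℝ W]
  [TopologicalSpace M] [ChartedSpace V M]
  [MeasurableSpace V] [BorelSpace V] [MeasurableSpace M] [BorelSpace M]
  [MeasurableSpace W] [BorelSpace W] [IsManifold 𝓘(ℝ, V) ∞ M]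
  [CompactSpace M] [T2Space M]

/-- **the near range**, `300 ≤ m ≤ 349`, from the relative tails -/
theorem near_300_349 [Nonempty M] (h1 : 300 ≤ finrank ℝ V) (h2 : finrank ℝ V ≤ 349)
    (hW : finrank ℝ W = finrank ℝ V + 2)
    {F : M → W} (hF : SphImm V F) (hmin : ∀ x n, IsUnitNormal V F x n → meanCurv V F x n = 0)
    (hrel : H925.RelU (96 / 5 : ℚ) (53 / 4 : ℚ) V W M [(1 / 20, 29 / 2000), (17 / 200, 9 / 500), (1 / 10, 49 / 2000),
      (3 / 25, 7 / 250), (7 / 50, 353 / 10000), (4 / 25, 47 / 1000), (9 / 50, 3 / 50)] ((91 / 20000 : ℚ) : ℝ)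
      (finrank ℝ V) F) : NearU V ((91 / 20000 : ℚ) : ℝ) boxH boxD F := by
  rcases le_or_gt (finrank ℝ V) 309 with h | h
  · exact nearU_KC H179.E300.ents_m H179.E300.ents_ok H684.okC_300_350
      (by norm_num) (by norm_num) (m2 := 350) (by norm_num)
      (by norm_num) (by norm_num) (by norm_num) (by omega) (by omega) hW hF hmin hrel
  rcases le_or_gt (finrank ℝ V) 319 with h | h
  · exact nearU_KC H179.E310.ents_m H179.E310.ents_ok H684.okC_300_350
      (by norm_num) (by norm_num) (m2 := 350) (by norm_num)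
      (by norm_num) (by norm_num) (by norm_num) (by omega) (by omega) hW hF hmin hrel
  rcases le_or_gt (finrank ℝ V) 329 with h | h
  · exact nearU_KC H179.E320.ents_m H179.E320.ents_ok H684.okC_300_350
      (by norm_num) (by norm_num) (m2 := 350) (by norm_num)
      (by norm_num) (by norm_num) (by norm_num) (by omega) (by omega) hW hF hmin hrel
  rcases le_or_gt (finrank ℝ V) 339 with h | h
  · exact nearU_KC H179.E330.ents_m H179.E330.ents_ok H684.okC_300_350
      (by norm_num) (by norm_num) (m2 := 350) (by norm_num)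
      (by norm_num) (by norm_num) (by norm_num) (by omega) (by omega) hW hF hmin hrel
  exact nearU_KC H179.E340.ents_m H179.E340.ents_ok H684.okC_300_350
    (by norm_num) (by norm_num) (m2 := 350) (by norm_num)
    (by norm_num) (by norm_num) (by norm_num) (by omega) (by omega) hW hF hmin hrel

end

end Vale.Agent.P224.R2.H577
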