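import Vale.Agent.P224.R2.H577.NC
import Vale.Agent.P224.R2.H864.E350
import Vale.Agent.P224.R2.H864.E360
import Vale.Agent.P224.R2.H864.E370
import Vale.Agent.P224.R2.H864.E380
import Vale.Agent.P224.R2.H864.E390
import Vale.Agent.P224.R2.H684.AbsC2

/-!
The near range on the dimensions `350 ≤ m ≤ 399`.
-/

namespace Vale.Agent.P224.R2.H577

open MeasureTheory Set Filter Function Real Module Matrix Vale.Agent.P224
  Vale.Agent.P224.R2.H820 Vale.Agent.P224.R2.H582 Vale.Agent.P224.R2.H627
  Vale.Agent.P224.R2.H728 Vale.Agent.P224.R2.H484 Vale.Agent.P224.R2.H925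
open Vale.Agent.P224.SM2 hiding ker
open Vale.Agent.P224.R2.H535 (boxH boxD)
open scoped Topology RealInnerProductSpace ContDiff Manifold

set_option linter.unusedSectionVars false

/-- the absolute tail of the block -/
lemma ab_350_399 : absOKg 200 wR 350 (1 / (400 : ℕ)) (lcG kR (96 / 5) (53 / 4)) (17 / 312500) = true := by
  rw [show (17 / 312500 : ℚ) = 544 / 10000000 by norm_num]
  exact H684.okC_350_400

section

variable {V W M : Type*} [NormedAddCommGroup V] [InnerProductSpace ℝ V] [FiniteDimensional ℝ V]
  [NormedAddCommGroup W] [InnerProductSpace ℝ W] [FiniteDimensional ℝ W]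
  [TopologicalSpace M] [ChartedSpace V M]
  [MeasurableSpace V] [BorelSpace V] [MeasurableSpace M] [BorelSpace M]
  [MeasurableSpace W] [BorelSpace W] [IsManifold 𝓘(ℝ, V) ∞ M]
  [CompactSpace M] [T2Space M]

/-- **the near range**, `350 ≤ m ≤ 399`, from the relative tails -/
theorem near_350_399 [Nonempty M] (h1 : 350 ≤ finrank ℝ V) (h2 : finrank ℝ V ≤ 399)
    (hW : finrank ℝ W = finrank ℝ V + 2)
    {F : M → W} (hF : SphImm V F) (hmin : ∀ x n, IsUnitNormal V F x n → meanCurv V F x n = 0)
    (hrel : H925.RelU (96 / 5 : ℚ) (53 / 4 : ℚ) V W M H864.E350.rels ((91 / 20000 : ℚ) : ℝ)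
      (finrank ℝ V) F) : NearU V ((91 / 20000 : ℚ) : ℝ) boxH boxD F := by
  rcases le_or_gt (finrank ℝ V) 359 with h | h
  · exact nearU_KC H864.E350.ents_m H864.E350.ents_ok ab_350_399
      (by norm_num) (by norm_num) (m2 := 400) (by norm_num)
      (by norm_num) (by norm_num) (by norm_num) (by omega) (by omega) hW hF hmin hrel
  rcases le_or_gt (finrank ℝ V) 369 with h | h
  · exact nearU_KC H864.E360.ents_m H864.E360.ents_ok ab_350_399
      (by norm_num) (by norm_num) (m2 := 400) (by norm_num)
      (by norm_num) (by norm_num) (by norm_num) (by omega) (by omega) hW hF hmin hrel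
  rcases le_or_gt (finrank ℝ V) 379 with h | h
  · exact nearU_KC H864.E370.ents_m H864.E370.ents_ok ab_350_399
      (by norm_num) (by norm_num) (m2 := 400) (by norm_num)
      (by norm_num) (by norm_num) (by norm_num) (by omega) (by omega) hW hF hmin hrel
  rcases le_or_gt (finrank ℝ V) 389 with h | h
  · exact nearU_KC H864.E380.ents_m H864.E380.ents_ok ab_350_399
      (by norm_num) (by norm_num) (m2 := 400) (by norm_num)
      (by norm_num) (by norm_num) (by norm_num) (by omega) (by omega) hW hF hmin hrel
  exact nearU_KC H864.E390.ents_m H864.E390.ents_ok ab_350_399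
    (by norm_num) (by norm_num) (m2 := 400) (by norm_num)
    (by norm_num) (by norm_num) (by norm_num) (by omega) (by omega) hW hF hmin hrel

end

end Vale.Agent.P224.R2.H577
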