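import Vale.Agent.P224.R2.H577.Ent
import Vale.Agent.P224.R2.H928.KbN

/-!
The near range of one dimension from an entry with both kinds of bounds of the mean normal.
-/

namespace Vale.Agent.P224.R2.H577

open MeasureTheory Set Filter Function Real Module Matrix Vale.Agent.P224
  Vale.Agent.P224.R2.H820 Vale.Agent.P224.R2.H582 Vale.Agent.P224.R2.H627
  Vale.Agent.P224.R2.H728 Vale.Agent.P224.R2.H484 Vale.Agent.P224.R2.H925
open Vale.Agent.P224.SM2 hiding ker
open Vale.Agent.P224.R2.H807 (EntT ElT ElFact ofQ nearT near_T e7_facts entT)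
open Vale.Agent.P224.R2.H928 (KbT kbAll kb_facts)
open Vale.Agent.P224.R2.H176 (NearData NearOut)
open scoped Topology RealInnerProductSpace ContDiff Manifold

set_option linter.unusedSectionVars false

/-- the bound of the mean normal in the near range as an affine fact -/
def nuF (p : ParQ) : ElT where
  d := 1
  ha := 0
  h := 1000
  K := 0
  L := 1
  R := p.ν

/-- an entry with the affine bounds of the mean normal -/
structure EntK where
  e : EntT
  kbs : List KbT

/-- the facts on the mean normal of an entry -/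
def factsK (e : EntK) : List ElT :=
  ((e.e.els.map fun f => ofQ f.1) ++ [nuF e.e.p]) ++ e.kbs.map KbT.f

/-- the entry is checked -/
def entKOK (B : BlkQ) (ν : ℚ) (H D : ℕ → ℚ) (e : EntK) : Bool :=
  inOK B e.e.m e.e.nums e.e.p e.e.laws && e7All e.e.p.m e.e.els && kbAll e.e.p.m e.kbs
    && nearT e.e.p e.e.k e.e.M e.e.laws (factsK e) e.e.cols
    && decide (ν ≤ e.e.p.ν) && parB H D e.e.m e.e.p

section

variable {V W M : Type*} [NormedAddCommGroup V] [InnerProductSpace ℝ V] [FiniteDimensional ℝ V]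
  [NormedAddCommGroup W] [InnerProductSpace ℝ W] [FiniteDimensional ℝ W]
  [TopologicalSpace M] [ChartedSpace V M]
  [MeasurableSpace V] [BorelSpace V] [MeasurableSpace M] [BorelSpace M]
  [MeasurableSpace W] [BorelSpace W] [IsManifold 𝓘(ℝ, V) ∞ M]
  [CompactSpace M] [T2Space M]

/-- the bound of the mean normal in the near range -/
lemma nuF_fact {p : ParQ} {ν : ℝ} (hν : ν ≤ p.ν) {F N : M → W}
    {b : OrthonormalBasis (Fin (finrank ℝ W)) ℝ W} {j : Fin (finrank ℝ W) → ℝ}
    (hd : NearData V F N b j ν) : ElFact V F N b j (nuF p) := by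
  intro _ _ _
  have h1 := hd.mean.le.trans hν
  unfold nuF
  push_cast
  linarith

/-- **the near range of one dimension from a checked entry** and the instances of the law -/
theorem nearU_K {B : BlkQ} {ν : ℚ} {H D : ℕ → ℚ} {e : EntK} (he : entKOK B ν H D e = true)
    (hmm : e.e.m = finrank ℝ V) (hW : finrank ℝ W = finrank ℝ V + 2)
    {F : M → W} (hF : SphImm V F) (hmin : ∀ x n, IsUnitNormal V F x n → meanCurv V F x n = 0)
    (hlaw : ∀ (N : M → W) (b : OrthonormalBasis (Fin (finrank ℝ W)) ℝ W)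
      (j : Fin (finrank ℝ W) → ℝ), NearData V F N b j ν →
      LawIn V F N e.e.m e.e.p e.e.laws b j) : NearU V ν H D F := by
  simp only [entKOK, Bool.and_eq_true, decide_eq_true_eq] at he
  obtain ⟨⟨⟨⟨⟨h1, h2⟩, h3⟩, h4⟩, h5⟩, h6⟩ := he
  have hpm := inOK_m h1
  have hpmR : (e.e.p.m : ℝ) = (finrank ℝ V : ℝ) := by
    rw [hpm, ← hmm]
    push_cast
    rfl
  have hpmQ : e.e.p.m = (finrank ℝ V : ℚ) := by
    rw [hpm, ← hmm]
  have hν : (ν : ℝ) ≤ e.e.p.ν := (Rat.cast_le (K := ℝ)).2 h5
  have hin := h1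
  simp only [inOK, Bool.and_eq_true, decide_eq_true_eq] at hin
  obtain ⟨⟨⟨⟨⟨h17, -⟩, -⟩, hpar⟩, -⟩, -⟩ := hin
  refine nearU_of h6 hpm hmm fun N b j hd => ?_
  refine near_T h17 hpar h4 hmm hW hF hmin hν hd (hlaw N b j hd) fun f hf => ?_
  rcases List.mem_append.1 hf with hf | hf
  · rcases List.mem_append.1 hf with hf | hf
    · exact e7_facts h2 (by rw [hpmR]; exact hd.t0) hd.lsq f hf
    · rw [List.mem_singleton] at hf
      subst hf
      exact nuF_fact hν hd
  · exact kb_facts hW hF hmin hpmQ h3 hd f hf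

end

end Vale.Agent.P224.R2.H577
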