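import Vale.Agent.P224.R2.H925.NxR
import Vale.Agent.P224.R2.H925.WU2
import Vale.Agent.P224.R2.H627.FraR
import Vale.Agent.P224.R2.H627.Pkc

/-!
The instances of the law for the sharper thresholds.
-/

namespace Vale.Agent.P224.R2.H577

open MeasureTheory Set Filter Function Real Module Matrix Vale.Agent.P224
  Vale.Agent.P224.R2.H820 Vale.Agent.P224.R2.H582 Vale.Agent.P224.R2.H627
  Vale.Agent.P224.R2.H728 Vale.Agent.P224.R2.H484 Vale.Agent.P224.R2.H925
open Vale.Agent.P224.SM2 hiding ker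
open Vale.Agent.P224.R2.H176 (NearData NearOut)
open scoped Topology RealInnerProductSpace ContDiff Manifold

set_option linter.unusedSectionVars false

section

variable {V W M : Type*} [NormedAddCommGroup V] [InnerProductSpace ℝ V] [FiniteDimensional ℝ V]
  [NormedAddCommGroup W] [InnerProductSpace ℝ W] [FiniteDimensional ℝ W]
  [TopologicalSpace M] [ChartedSpace V M]
  [MeasurableSpace V] [BorelSpace V] [MeasurableSpace M] [BorelSpace M]
  [MeasurableSpace W] [BorelSpace W] [IsManifold 𝓘(ℝ, V) ∞ M]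
  [CompactSpace M] [T2Space M]

/-- all instances of the law for the checker, any second coefficient that is the standard one
below the level of the block -/
theorem lawIn_blkG [Nonempty M] {B : BlkQ} {m : ℕ} {nums : List NumE} {p : ParQ}
    {laws : List LawQ} (hin : inOK B m nums p laws = true) (hmm : m = finrank ℝ V)
    (hW : finrank ℝ W = finrank ℝ V + 2)
    {F : M → W} (hF : SphImm V F) (hmin : ∀ x n, IsUnitNormal V F x n → meanCurv V F x n = 0)
    {lam be' : ℝ → ℝ} (hfr : Fra m lam be' B.t1)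
    (hbe : ∀ T ∈ Ioo (0 : ℝ) B.t1, be' T = be m (31 / 10) T (eM m T) (rM m T))
    (hcr : CNum m lam be' B.t1 (9 / 50))
    (hla : ∀ T ∈ Ioo (0 : ℝ) B.t1, lam T ≤ pe B.la 0 T)
    (hlb : ∀ T ∈ Ioo (0 : ℝ) B.t1, pe B.lb 0 T ≤ lam T)
    {N : M → W} (hNs : ContMDiff 𝓘(ℝ, V) 𝓘(ℝ, W) ∞ N) (hN : ∀ x, IsUnitNormal V F x (N x))
    (hinj : Injective F) (b : OrthonormalBasis (Fin (finrank ℝ W)) ℝ W)
    (j : Fin (finrank ℝ W) → ℝ)
    (hT : T0Data (nrm (volM V F)) (finrank ℝ V) (co b F) (co b N))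
    (hL : LSq (nrm (volM V F)) (Matrix.diagonal j) (co b F) (co b N))
    (ht : TailB V F N m lam b j B) :
    LawIn V F N m p laws b j := by
  have hfin : IsFiniteMeasure (volM V F) := isFiniteMeasure_volM hF
  simp only [inOK, Bool.and_eq_true, decide_eq_true_eq, List.all_eq_true] at hin
  obtain ⟨⟨⟨⟨⟨h17, ht1⟩, ht1'⟩, hpar⟩, hnums⟩, hlaws⟩ := hin
  simp only [parE, Bool.and_eq_true, decide_eq_true_eq] at hpar
  obtain ⟨⟨⟨⟨⟨-, -⟩, -⟩, c4⟩, c5⟩, c6⟩ := hpar
  have t1R : (3 / 10 : ℝ) ≤ B.t1 := by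
    have h' := castQ ht1
    push_cast at h'
    exact h'
  have t1R' : (B.t1 : ℝ) ≤ 1 := by
    have h' := castQ ht1'
    push_cast at h'
    exact h'
  have hh0 := hT.hh_nonneg (diagonal j)
  have hf0 : 0 ≤ fro (De (nrm (volM V F)) (co b F) (co b N)) := fro_nonneg _
  refine lawIn_of (T1 := B.t1) (by omega) hW hF hmin hNs hN hinj b j hmm (by linarith) t1R' hfr
    (fun q hq => ?_) ?_ (absTail_mono ht.abs (castQ c5)) (absTail_mono ht.abs (castQ c6))
  · have hq' := hlaws q hq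
    simp only [lawE, Bool.and_eq_true, decide_eq_true_eq, List.any_eq_true] at hq'
    obtain ⟨⟨⟨⟨⟨⟨d1, d2⟩, d3⟩, d4⟩, d5⟩, ⟨n, hn, ⟨⟨e1, e2⟩, e3⟩⟩⟩, ⟨k, hk, ⟨g1, g2⟩⟩⟩ := hq'
    have hn' := hnums n hn
    simp only [numOK, Bool.and_eq_true, decide_eq_true_eq] at hn'
    obtain ⟨⟨⟨⟨⟨f1, f2⟩, f3⟩, f4⟩, f5⟩, f6⟩ := hn'
    have hw : WNum m lam be' n.P.t1 n.P.s n.w0 n.w1 := by
      refine wnum_of h17 f1 f2 (fun T hT => ?_) ?_ ?_
      · rw [f4] at hT
        rw [f3, hbe T hT]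
        push_cast
        rfl
      · rw [f4, f5]
        exact hla
      · rw [f4, f6]
        exact hlb
    refine ⟨d1, d2, ?_, absTail_mono ht.abs (castQ d3), fun hd hh1 => ?_⟩
    · obtain ⟨B0, B1, i0, i1, b0, b1, v0, v1⟩ := hw
      rw [f4, ← e1] at *
      exact ⟨B0, B1, i0, i1, b0, b1, (castQ e2).trans v0, v1.trans (castQ e3)⟩
    · refine absTail_mono (ht.rel k hk fun a => ?_) (mul_le_mul_of_nonneg_right (castQ g2) hh0)
      have d4R : (q.d : ℝ) < 1 := by exact_mod_cast d4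
      have d5R : (0 : ℝ) ≤ q.d := by exact_mod_cast d5
      have hfb : fro (De (nrm (volM V F)) (co b F) (co b N)) ≤ (q.d : ℝ) ^ 2 := by
        rw [← Real.sq_sqrt hf0]
        exact pow_le_pow_left₀ (Real.sqrt_nonneg _) hd 2
      have k1 := hT.w_le (by positivity) hL d5R d4R hfb a
      have k2 := castQ g1
      push_cast at k2
      rw [← hmm] at k1
      linarith
  · obtain ⟨T0, B0, e1, e2, e3, e4, e5⟩ := hcr
    have hWUR : (p.WU : ℝ) ≤ 9 / 50 := by
      have h' := castQ c4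
      push_cast at h'
      exact h'
    exact ⟨T0, B0, e1, e2, e3, e4, hWUR.trans e5⟩

/-- the number of the crude law for the sharper thresholds -/
theorem cnumR {m : ℕ} (hm : 100 ≤ m) {lam : ℝ → ℝ}
    (hl : ∀ T ∈ Ioo (0 : ℝ) (3 / 10), (1 - T ^ 2) * lam T ≤ 97 / 5) {T1 : ℝ}
    (hT1 : 3 / 10 ≤ T1) : CNum m lam (beR m) T1 (9 / 50) := by
  obtain ⟨B0, i0, h1, h2⟩ := W2.WU_ge (m := m) hm (κ := 31 / 10) (by norm_num) (lam := lam) hl
  refine ⟨3 / 10, B0, by norm_num, hT1, i0, fun T hT => ?_, le_trans (by norm_num) h1⟩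
  have h := h2 T hT
  rw [beR_be (T1 := 3 / 10) (by norm_num) T hT]
  exact h

/-- the admissibility of the threshold function of a block -/
lemma lamX_adm {L K : ℝ} {T : ℝ} (hT : T ∈ Ioo (0 : ℝ) 1) :
    (1 - T ^ 2) * lamX L K T ≤ L ∨ (1 - T ^ 2) * ((1 - T ^ 2) * lamX L K T) ≤ K := by
  have hk : 0 < 1 - T ^ 2 := by nlinarith [hT.1, hT.2]
  rw [lamX_mul hT]
  rcases le_total (K / (1 - T ^ 2)) L with h | h
  · exact Or.inl (by rw [max_eq_left h])
  · exact Or.inr (by rw [max_eq_right h, mul_div_cancel₀ _ hk.ne'])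

/-- **all instances of the law**, thresholds `max c₁ (c₂ / (1 - T^2))`, `m ≥ 100` -/
theorem lawIn_XR [Nonempty M] {c1 c2 : ℚ} {tm : ℝ} (P : Pk (c1 : ℝ) (c2 : ℝ) tm)
    (hc : 4 / 3 * c2 ≤ c1) (hc1 : c1 ≤ 97 / 5) {ab : ℚ} {rels : List (ℚ × ℚ)} {m : ℕ}
    (htm : 2 / (m : ℝ) ≤ tm) {nums : List NumE} {p : ParQ} {laws : List LawQ}
    (hin : inOK (blkX c1 ab (rels ++ [relFree])) m nums p laws = true)
    (hmm : m = finrank ℝ V) (hW : finrank ℝ W = finrank ℝ V + 2)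
    {F : M → W} (hF : SphImm V F) (hmin : ∀ x n, IsUnitNormal V F x n → meanCurv V F x n = 0)
    {m1 : ℕ} {x : ℚ} (hab : absOKg 200 wR m1 x (lcG kR c1 c2) ab = true) (h17 : 17 ≤ m1)
    (h100 : 100 ≤ m) (hm1 : m1 ≤ m) (h1000 : m ≤ 1000) (hx : (x : ℝ) ≤ 1 / m) {ν : ℝ}
    (hrel : H925.RelU c1 c2 V W M rels ν m F)
    (N : M → W) (b : OrthonormalBasis (Fin (finrank ℝ W)) ℝ W) (j : Fin (finrank ℝ W) → ℝ)
    (hd : NearData V F N b j ν) : LawIn V F N m p laws b j := by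
  have hc2 : 3 ≤ c2 := by
    have h := P.K1
    have : (3 : ℝ) ≤ c2 := by linarith
    exact_mod_cast this
  have hc20 : (0 : ℝ) ≤ c2 := by
    have : (3 : ℝ) ≤ c2 := by exact_mod_cast hc2
    linarith
  have hcR : (4 / 3 : ℝ) * c2 ≤ c1 := by
    have h' := castQ hc
    push_cast at h'
    exact h'
  have hc1R : (c1 : ℝ) ≤ 97 / 5 := by
    have h' := castQ hc1
    push_cast at h'
    exact h'
  have hc10 : 0 ≤ c1 := by linarith
  have ht : (((blkX c1 ab (rels ++ [relFree])).t1 : ℚ) : ℝ) = 1 / 2 := by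
    unfold blkX
    push_cast
    rfl
  have hrel' := relU_free hc10 hc2 (h17.trans hm1) h1000 hmm hW hF hmin hrel
  refine lawIn_blkG hin hmm hW hF hmin (lam := lamX c1 c2) (be' := beR m)
    (fra_R (by omega) P htm (fun T hT => lamX_adm hT) (by rw [ht]; norm_num))
    (beR_be (by rw [ht]; norm_num))
    (cnumR h100 (fun T hT => ?_) (by rw [ht]; norm_num))
    (fun T hT => lamX_le hc10 hc20 hcR (by rw [ht] at hT; exact hT))
    (fun T hT => le_lamX hc10 hc20 hcR (by rw [ht] at hT; exact hT))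
    hd.smooth hd.unit hd.inj b j hd.t0 hd.lsq
    ⟨abs_X hW hF hmin hd.smooth hd.unit hmm hab h17 hm1 hx (by linarith), hrel' N b j hd⟩
  rw [lamX_half ⟨hT.1, by linarith [hT.2]⟩ hc20 hcR]
  exact hc1R

end

end Vale.Agent.P224.R2.H577
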