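import Vale.Agent.P224.R2.H577.RelC
import Vale.Agent.P224.R2.H424.Rel36
import Vale.Agent.P224.R2.H686.PhiG

/-!
The relative tails of the dimensions from 36 to 44.
-/

namespace Vale.Agent.P224.R2.H577

open MeasureTheory Set Filter Function Real Module Matrix Vale.Agent.P224 Vale.Agent.P224.FV
  Vale.Agent.P224.R2.H820 Vale.Agent.P224.R2.H582 Vale.Agent.P224.R2.H627
  Vale.Agent.P224.R2.H728 Vale.Agent.P224.R2.H484 Vale.Agent.P224.R2.H925
open Vale.Agent.P224.SM2 hiding ker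
open Vale.Agent.P224.R2.H176 (NearData NearOut zf norm_zf int_zf)
open Vale.Agent.P224.R2.H869 (NrmData nrmData_of_min datR fitR)
open Vale.Agent.P224.R2.H662 (dop dop_apply)
open Vale.Agent.P224.R2.H686 (zz aa ff ph Dat)
open scoped Topology RealInnerProductSpace ContDiff Manifold

set_option linter.unusedSectionVars false

section

variable {V W M : Type*} [NormedAddCommGroup V] [InnerProductSpace ℝ V] [FiniteDimensional ℝ V]
  [NormedAddCommGroup W] [InnerProductSpace ℝ W] [FiniteDimensional ℝ W]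
  [TopologicalSpace M] [ChartedSpace V M]
  [MeasurableSpace V] [BorelSpace V] [MeasurableSpace M] [BorelSpace M]
  [MeasurableSpace W] [BorelSpace W] [IsManifold 𝓘(ℝ, V) ∞ M]
  [CompactSpace M] [T2Space M]

lemma zz_zf {ι : Type*} [Fintype ι] (b : OrthonormalBasis ι ℝ W) (j : ι → ℝ) (F N : M → W)
    (x : M) : zz (dop b j) F N x = zf b j F N x := by
  unfold zz zf
  rw [dop_apply]
  simp only [real_inner_comm]

lemma int_nrm (F : M → W) (g : M → ℝ) :
    ∫ x, g x ∂(nrm (volM V F)) = ((volM V F) univ).toReal⁻¹ * ∫ x, g x ∂(volM V F) := by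
  unfold nrm
  rw [integral_smul_measure, ENNReal.toReal_inv, smul_eq_mul]

/-- the row of the radial part of the deviation for `j_a^2 ≤ 2 / 25 (m + 1)` -/
theorem row_zf {F N : M → W} (D : NrmData V F N) {ι : Type*} [Fintype ι] [DecidableEq ι]
    (b : OrthonormalBasis ι ℝ W) {j : ι → ℝ} (h36 : 36 ≤ finrank ℝ V)
    (hL : LSq (nrm (volM V F)) (diagonal j) (co b F) (co b N))
    (hj : ∀ a, j a ^ 2 ≤ ((2 / 25 : ℚ) : ℝ) * (finrank ℝ V + 1))
    (hH : ∫ x, aa (dop b j) F N x ∂(nrm (volM V F)) ≤ 1 / 50) :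
    (finrank ℝ V : ℝ) * ∫ x, ⟪zf b j F N x, F x⟫ ^ 2 ∂(volM V F)
      ≤ 8 * ∫ x, ‖zf b j F N x‖ ^ 2 ∂(volM V F) := by
  have := D.fin
  have := D.nz
  have := D.prob
  have d : Dat (nrm (volM V F)) (finrank ℝ V) F N (dop b j) ((583 / 2000 : ℚ) : ℝ) :=
    datR D b hL (m1 := 36) h36 (lam := 583 / 2000) (eta := 1) (kap := 2 / 25) (rel := 1)
      (ab := 1) (by decide +kernel) hj
  have h := d.P085 h36 (by push_cast; norm_num) hH
  have e1 : ∀ x, ph (finrank ℝ V) (dop b j) F x ^ 2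
      = (finrank ℝ V : ℝ) * ⟪zf b j F N x, F x⟫ ^ 2 := by
    intro x
    unfold ph
    rw [mul_pow, Real.sq_sqrt (by positivity), sq_abs, d.f_eq, neg_sq, zz_zf]
  have e2 : ∀ x, aa (dop b j) F N x = ‖zf b j F N x‖ ^ 2 := by
    intro x
    unfold aa
    rw [zz_zf]
  simp only [e1, e2] at h
  rw [int_nrm, int_nrm, integral_const_mul] at h
  have hv : 0 < ((volM V F) univ).toReal := by
    rw [ENNReal.toReal_pos_iff]
    exact ⟨Measure.measure_univ_pos.2 D.nz.out, measure_lt_top _ _⟩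
  have h2 : 0 ≤ ∫ x, ‖zf b j F N x‖ ^ 2 ∂(volM V F) := integral_nonneg fun x => by positivity
  have h3 : ((volM V F) univ).toReal⁻¹ * ((finrank ℝ V : ℝ)
        * ∫ x, ⟪zf b j F N x, F x⟫ ^ 2 ∂(volM V F))
      ≤ ((volM V F) univ).toReal⁻¹ * (8 * ∫ x, ‖zf b j F N x‖ ^ 2 ∂(volM V F)) := by
    refine h.trans ?_
    have : 0 ≤ ((volM V F) univ).toReal⁻¹ * ∫ x, ‖zf b j F N x‖ ^ 2 ∂(volM V F) := by positivity
    linarith
  exact le_of_mul_le_mul_left h3 (by positivity)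

/-- **the relative tails**, `36 ≤ m ≤ 44` -/
theorem relU_44 [Nonempty M] (h1 : 36 ≤ finrank ℝ V) (h2 : finrank ℝ V ≤ 44)
    (hW : finrank ℝ W = finrank ℝ V + 2)
    {F : M → W} (hF : SphImm V F) (hmin : ∀ x n, IsUnitNormal V F x n → meanCurv V F x n = 0)
    {rels : List (ℚ × ℚ)} (hrels : ∀ k ∈ rels, k.1 ≤ 2 / 25 ∧ 1 / 50 ≤ k.2) {ν : ℝ} :
    H925.RelU (91 / 5 : ℚ) (61 / 5 : ℚ) V W M rels ν (finrank ℝ V) F := by
  have hfin : IsFiniteMeasure (volM V F) := isFiniteMeasure_volM hF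
  intro N b j hd k hk hj
  obtain ⟨k1, k2⟩ := hrels k hk
  have k2R : (1 / 50 : ℝ) ≤ k.2 := by
    have h := (Rat.cast_le (K := ℝ)).2 k2
    push_cast at h
    exact h
  have D : NrmData V F N := nrmData_of_min (by omega) hW hF hmin hd.smooth hd.unit
  have hh0 := hd.t0.hh_nonneg (diagonal j)
  have e : hh (nrm (volM V F)) (diagonal j) (co b F) (co b N)
      = ∫ x, aa (dop b j) F N x ∂(nrm (volM V F)) := H662.hh_norm b j
  push_cast
  rcases le_or_gt (∫ x, aa (dop b j) F N x ∂(nrm (volM V F))) (1 / 50) with hη | hη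
  · have hrow := row_zf D b h1 hd.lsq (fun a => (hj a).trans
      (mul_le_mul_of_nonneg_right ((Rat.cast_le (K := ℝ)).2 k1) (by positivity))) hη
    refine absTail_mono (H424.Tls.rel36_min8 h1 (by omega) hW hF hmin hd.smooth hd.unit b j rfl
      hrow) (mul_le_mul_of_nonneg_right ?_ hh0)
    have h3 : ∀ m, 36 ≤ m → m ≤ 44 → H424.Tls.relFX8 m ≤ 1 / 50 := by
      intro m g1 g2
      interval_cases m <;> · unfold H424.Tls.relFX8; norm_num
    have h4 := (Rat.cast_le (K := ℝ)).2 (h3 _ h1 h2)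
    push_cast at h4
    exact h4.trans k2R
  · have ha := abs_X (c1 := 91 / 5) (c2 := 61 / 5) hW hF hmin hd.smooth hd.unit rfl okA_36_60
      (by norm_num) h1 (inv_blk (by omega) (by omega)) (by norm_num)
    push_cast at ha
    refine absTail_mono ha ?_
    rw [e]
    have : (1 / 50 : ℝ) * (1 / 50) ≤ (k.2 : ℝ)
        * ∫ x, aa (dop b j) F N x ∂(nrm (volM V F)) :=
      mul_le_mul k2R hη.le (by norm_num) (by linarith)
    linarith

end

end Vale.Agent.P224.R2.H577
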