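import Vale.Agent.P224.R2.H577.N36
import Vale.Agent.P224.R2.H577.N41
import Vale.Agent.P224.R2.H577.Rel44

/-!
The near range of the dimensions from 36 to 44.
-/

namespace Vale.Agent.P224.R2.H577

open MeasureTheory Set Filter Function Real Module Matrix Vale.Agent.P224
  Vale.Agent.P224.R2.H820 Vale.Agent.P224.R2.H582 Vale.Agent.P224.R2.H627
  Vale.Agent.P224.R2.H728 Vale.Agent.P224.R2.H484 Vale.Agent.P224.R2.H925
open Vale.Agent.P224.SM2 hiding ker
open Vale.Agent.P224.R2.H535 (boxH boxD)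
open Vale.Agent.P224.R2.H176 (NearData NearOut)
open scoped Topology RealInnerProductSpace ContDiff Manifold

set_option linter.unusedSectionVars false

section

variable {V W M : Type*} [NormedAddCommGroup V] [InnerProductSpace ℝ V] [FiniteDimensional ℝ V]
  [NormedAddCommGroup W] [InnerProductSpace ℝ W] [FiniteDimensional ℝ W]
  [TopologicalSpace M] [ChartedSpace V M]
  [MeasurableSpace V] [BorelSpace V] [MeasurableSpace M] [BorelSpace M]

lemma nearU_nu {ν ν' : ℝ} {H D : ℕ → ℚ} {F : M → W} (h : NearU V ν H D F) (hν : ν' ≤ ν) :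
    NearU V ν' H D F := by
  obtain ⟨p, h1, h2, h3, h4⟩ := h
  exact ⟨p, h1, h2, h3, fun N b j hd => h4 N b j
    ⟨hd.smooth, hd.unit, hd.inj, hd.t0, hd.lsq, hd.mean.trans_le hν⟩⟩

variable [MeasurableSpace W] [BorelSpace W] [IsManifold 𝓘(ℝ, V) ∞ M] [CompactSpace M]
  [T2Space M]

/-- **the near range**, `36 ≤ m ≤ 40` -/
theorem near36 [Nonempty M] (h1 : 36 ≤ finrank ℝ V) (h2 : finrank ℝ V ≤ 40)
    (hW : finrank ℝ W = finrank ℝ V + 2)
    {F : M → W} (hF : SphImm V F) (hmin : ∀ x n, IsUnitNormal V F x n → meanCurv V F x n = 0) :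
    NearU V (3 / 100 : ℝ) boxH boxD F := by
  have h := near_36_40 h1 h2 hW hF hmin (relU_44 h1 (by omega) hW hF hmin (by decide +kernel))
  exact nearU_nu h (by push_cast; norm_num)

/-- **the near range**, `41 ≤ m ≤ 44` -/
theorem near41 [Nonempty M] (h1 : 41 ≤ finrank ℝ V) (h2 : finrank ℝ V ≤ 44)
    (hW : finrank ℝ W = finrank ℝ V + 2)
    {F : M → W} (hF : SphImm V F) (hmin : ∀ x n, IsUnitNormal V F x n → meanCurv V F x n = 0) :
    NearU V (1 / 40 : ℝ) boxH boxD F := by
  have h := near_41_59 h1 (by omega) hW hF hmin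
    (relU_44 (by omega) h2 hW hF hmin (by decide +kernel))
  exact nearU_nu h (by push_cast; norm_num)

end

end Vale.Agent.P224.R2.H577
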