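import Vale.Agent.P224.R2.H577.Ent

/-!
The near range on the blocks `36 ≤ m ≤ 60` and `60 ≤ m ≤ 100`.
-/

namespace Vale.Agent.P224.R2.H577

open MeasureTheory Set Filter Function Real Module Matrix Vale.Agent.P224
  Vale.Agent.P224.R2.H820 Vale.Agent.P224.R2.H582 Vale.Agent.P224.R2.H627
  Vale.Agent.P224.R2.H728 Vale.Agent.P224.R2.H484 Vale.Agent.P224.R2.H925
open Vale.Agent.P224.SM2 hiding ker
open Vale.Agent.P224.R2.H535 (boxH boxD)
open scoped Topology RealInnerProductSpace ContDiff Manifold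

set_option linter.unusedSectionVars false

section

variable {V W M : Type*} [NormedAddCommGroup V] [InnerProductSpace ℝ V] [FiniteDimensional ℝ V]
  [NormedAddCommGroup W] [InnerProductSpace ℝ W] [FiniteDimensional ℝ W]
  [TopologicalSpace M] [ChartedSpace V M]
  [MeasurableSpace V] [BorelSpace V] [MeasurableSpace M] [BorelSpace M]
  [MeasurableSpace W] [BorelSpace W] [IsManifold 𝓘(ℝ, V) ∞ M]
  [CompactSpace M] [T2Space M]

/-- the near range, `36 ≤ m ≤ 60` -/
theorem nearU_36 [Nonempty M] {rels : List (ℚ × ℚ)} {ν : ℚ} {ents : List EntX} {a n : ℕ}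
    (hms : ents.map EntX.m = List.range' a n) (ha : 36 ≤ a) (hn : a + n ≤ 61)
    (hents : ∀ e ∈ ents,
      entXOK (blkX (91 / 5) (28 / 1000000) (rels ++ [relFree])) ν boxH boxD e = true)
    (h1 : a ≤ finrank ℝ V) (h2 : finrank ℝ V < a + n) (hW : finrank ℝ W = finrank ℝ V + 2)
    {F : M → W} (hF : SphImm V F) (hmin : ∀ x n, IsUnitNormal V F x n → meanCurv V F x n = 0)
    (hrel : H925.RelU (91 / 5 : ℚ) (61 / 5 : ℚ) V W M rels ν (finrank ℝ V) F) :
    NearU V (ν : ℝ) boxH boxD F := by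
  refine nearU_tabX (c1 := 91 / 5) (c2 := 61 / 5) (by norm_num) (by norm_num) (by norm_num)
    hms h1 h2 hents hW hF hmin (fun m hm => ?_) okA_36_60 (by norm_num) ha (m2 := 60) hn
    (by norm_num) (by norm_num) (by norm_num) hrel
  have h := admX1 (m := m) (by omega)
  push_cast
  exact h

/-- the near range, `60 ≤ m ≤ 100` -/
theorem nearU_60 [Nonempty M] {rels : List (ℚ × ℚ)} {ν : ℚ} {ents : List EntX} {a n : ℕ}
    (hms : ents.map EntX.m = List.range' a n) (ha : 60 ≤ a) (hn : a + n ≤ 101)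
    (hents : ∀ e ∈ ents,
      entXOK (blkX (91 / 5) (53 / 1000000) (rels ++ [relFree])) ν boxH boxD e = true)
    (h1 : a ≤ finrank ℝ V) (h2 : finrank ℝ V < a + n) (hW : finrank ℝ W = finrank ℝ V + 2)
    {F : M → W} (hF : SphImm V F) (hmin : ∀ x n, IsUnitNormal V F x n → meanCurv V F x n = 0)
    (hrel : H925.RelU (91 / 5 : ℚ) (61 / 5 : ℚ) V W M rels ν (finrank ℝ V) F) :
    NearU V (ν : ℝ) boxH boxD F := by
  refine nearU_tabX (c1 := 91 / 5) (c2 := 61 / 5) (by norm_num) (by norm_num) (by norm_num)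
    hms h1 h2 hents hW hF hmin (fun m hm => ?_) okA_60_100 (by norm_num) ha (m2 := 100) hn
    (by norm_num) (by norm_num) (by norm_num) hrel
  have h := admX1 (m := m) (by omega)
  push_cast
  exact h

end

end Vale.Agent.P224.R2.H577
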