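import Vale.Agent.P224.R2.H577.LamR
import Vale.Agent.P224.R2.H577.EntK

/-!
The near range for the thresholds `(96/5, 53/4)`, `m ≥ 100`.
-/

namespace Vale.Agent.P224.R2.H577

open MeasureTheory Set Filter Function Real Module Matrix Vale.Agent.P224
  Vale.Agent.P224.R2.H820 Vale.Agent.P224.R2.H582 Vale.Agent.P224.R2.H627
  Vale.Agent.P224.R2.H728 Vale.Agent.P224.R2.H484 Vale.Agent.P224.R2.H925
open Vale.Agent.P224.SM2 hiding ker
open Vale.Agent.P224.R2.H684 (nearX nearOut_ofX)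
open Vale.Agent.P224.R2.H176 (NearData NearOut)
open scoped Topology RealInnerProductSpace ContDiff Manifold

set_option linter.unusedSectionVars false

section

variable {V W M : Type*} [NormedAddCommGroup V] [InnerProductSpace ℝ V] [FiniteDimensional ℝ V]
  [NormedAddCommGroup W] [InnerProductSpace ℝ W] [FiniteDimensional ℝ W]
  [TopologicalSpace M] [ChartedSpace V M]
  [MeasurableSpace V] [BorelSpace V] [MeasurableSpace M] [BorelSpace M]
  [MeasurableSpace W] [BorelSpace W] [IsManifold 𝓘(ℝ, V) ∞ M]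
  [CompactSpace M] [T2Space M]

/-- **the near range of one dimension from a checked entry** and the instances of the law, first
form of the table -/
theorem nearU_XL {B : BlkQ} {ν : ℚ} {H D : ℕ → ℚ} {e : EntX} (he : entXOK B ν H D e = true)
    (hmm : e.m = finrank ℝ V) {F : M → W}
    (hlaw : ∀ (N : M → W) (b : OrthonormalBasis (Fin (finrank ℝ W)) ℝ W)
      (j : Fin (finrank ℝ W) → ℝ), NearData V F N b j ν →
      LawIn V F N e.m e.p e.laws b j) : NearU V ν H D F := by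
  simp only [entXOK, Bool.and_eq_true, decide_eq_true_eq] at he
  obtain ⟨⟨⟨⟨h1, h2⟩, h3⟩, h4⟩, h5⟩ := he
  have hpm := inOK_m h1
  have hpmR : (e.p.m : ℝ) = (finrank ℝ V : ℝ) := by
    rw [hpm, ← hmm]
    push_cast
    rfl
  have hν : (ν : ℝ) ≤ e.p.ν := (Rat.cast_le (K := ℝ)).2 h4
  have hin := h1
  simp only [inOK, Bool.and_eq_true, decide_eq_true_eq] at hin
  obtain ⟨⟨⟨⟨⟨h17, -⟩, -⟩, hpar⟩, -⟩, -⟩ := hin
  simp only [parE, Bool.and_eq_true, decide_eq_true_eq] at hpar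
  obtain ⟨⟨⟨⟨⟨c1, c2⟩, c3⟩, -⟩, -⟩, -⟩ := hpar
  obtain ⟨n1, n2⟩ := chkE_sound h17 c2
  have n3 := (le_gq2 h17).trans (castQ c3)
  exact nearU_of h5 hpm hmm fun N b j hd =>
    nearOut_ofX hmm h2 c1 n3 n1 n2 hν hd (hlaw N b j hd)
      (e7All_sound e.els h3 (by rw [hpmR]; exact hd.t0) hd.lsq)

lemma inv_of {x : ℚ} {m m2 : ℕ} (h0 : 0 < m) (h : m ≤ m2) (hx : x * m2 ≤ 1) (hx0 : 0 ≤ x) :
    (x : ℝ) ≤ 1 / m := by
  have hm0 : (0 : ℝ) < m := by exact_mod_cast h0
  rw [le_div_iff₀ hm0]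
  have h3 : (m : ℝ) ≤ m2 := by exact_mod_cast h
  have h4 : (x : ℝ) * m2 ≤ 1 := by exact_mod_cast hx
  have h5 : (0 : ℝ) ≤ x := by exact_mod_cast hx0
  exact (mul_le_mul_of_nonneg_left h3 h5).trans h4

lemma pkc : Pk ((96 / 5 : ℚ) : ℝ) ((53 / 4 : ℚ) : ℝ) (1 / 50) := by
  push_cast
  exact pk_c

/-- **the near range of a block**, first form of the table, `m ≥ 100` -/
theorem nearU_C [Nonempty M] {ab : ℚ} {rels : List (ℚ × ℚ)} {ν : ℚ} {H D : ℕ → ℚ}
    {ents : List EntX} {a n : ℕ} (hms : ents.map EntX.m = List.range' a n)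
    (hents : ∀ e ∈ ents, entXOK (blkX (96 / 5) ab (rels ++ [relFree])) ν H D e = true)
    {m1 m2 : ℕ} {x : ℚ} (hab : absOKg 200 wR m1 x (lcG kR (96 / 5) (53 / 4)) ab = true)
    (h100 : 100 ≤ m1) (hm1 : m1 ≤ a) (hm2 : a + n ≤ m2 + 1) (h1000 : m2 ≤ 1000)
    (hx : x * m2 ≤ 1) (hx0 : 0 ≤ x)
    (h1 : a ≤ finrank ℝ V) (h2 : finrank ℝ V < a + n)
    (hW : finrank ℝ W = finrank ℝ V + 2)
    {F : M → W} (hF : SphImm V F) (hmin : ∀ x n, IsUnitNormal V F x n → meanCurv V F x n = 0)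
    (hrel : H925.RelU (96 / 5 : ℚ) (53 / 4 : ℚ) V W M rels ν (finrank ℝ V) F) :
    NearU V ν H D F := by
  obtain ⟨e, he, hem⟩ := ent_mem hms h1 h2
  have hok := hents e he
  refine nearU_XL hok hem fun N b j hd => ?_
  simp only [entXOK, Bool.and_eq_true] at hok
  have htm : 2 / (e.m : ℝ) ≤ 1 / 50 := by
    have h : (100 : ℝ) ≤ e.m := by
      have : 100 ≤ e.m := by omega
      exact_mod_cast this
    rw [div_le_div_iff₀ (by linarith) (by norm_num)]
    linarith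
  exact lawIn_XR pkc (by norm_num) (by norm_num) htm hok.1.1.1.1 hem hW hF hmin hab (by omega)
    (by omega) (by omega) (by omega) (inv_of (by omega) (by omega) hx hx0)
    (by rw [hem]; exact hrel) N b j hd

/-- **the near range of a block**, second form of the table, `m ≥ 100` -/
theorem nearU_KC [Nonempty M] {ab : ℚ} {rels : List (ℚ × ℚ)} {ν : ℚ} {H D : ℕ → ℚ}
    {ents : List EntK} {a n : ℕ} (hms : ents.map (fun e => e.e.m) = List.range' a n)
    (hents : ∀ e ∈ ents, entKOK (blkX (96 / 5) ab (rels ++ [relFree])) ν H D e = true)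
    {m1 m2 : ℕ} {x : ℚ} (hab : absOKg 200 wR m1 x (lcG kR (96 / 5) (53 / 4)) ab = true)
    (h100 : 100 ≤ m1) (hm1 : m1 ≤ a) (hm2 : a + n ≤ m2 + 1) (h1000 : m2 ≤ 1000)
    (hx : x * m2 ≤ 1) (hx0 : 0 ≤ x)
    (h1 : a ≤ finrank ℝ V) (h2 : finrank ℝ V < a + n)
    (hW : finrank ℝ W = finrank ℝ V + 2)
    {F : M → W} (hF : SphImm V F) (hmin : ∀ x n, IsUnitNormal V F x n → meanCurv V F x n = 0)
    (hrel : H925.RelU (96 / 5 : ℚ) (53 / 4 : ℚ) V W M rels ν (finrank ℝ V) F) :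
    NearU V ν H D F := by
  obtain ⟨e, he, hem⟩ := ent_mem hms h1 h2
  have hok := hents e he
  refine nearU_K hok hem hW hF hmin fun N b j hd => ?_
  simp only [entKOK, Bool.and_eq_true] at hok
  have htm : 2 / (e.e.m : ℝ) ≤ 1 / 50 := by
    have h : (100 : ℝ) ≤ e.e.m := by
      have : 100 ≤ e.e.m := by omega
      exact_mod_cast this
    rw [div_le_div_iff₀ (by linarith) (by norm_num)]
    linarith
  exact lawIn_XR pkc (by norm_num) (by norm_num) htm hok.1.1.1.1.1 hem hW hF hmin hab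
    (by omega) (by omega) (by omega) (by omega) (inv_of (by omega) (by omega) hx hx0)
    (by rw [hem]; exact hrel) N b j hd

end

end Vale.Agent.P224.R2.H577
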