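import Vale.Agent.P224.R2.H577.RelL
import Vale.Agent.P224.R2.H869.TlBlk

/-!
The relative tails of a block from the certificates.
-/

namespace Vale.Agent.P224.R2.H577

open MeasureTheory Set Filter Function Real Module Matrix Vale.Agent.P224
  Vale.Agent.P224.R2.H820 Vale.Agent.P224.R2.H582 Vale.Agent.P224.R2.H627
  Vale.Agent.P224.R2.H728 Vale.Agent.P224.R2.H484 Vale.Agent.P224.R2.H925
open Vale.Agent.P224.SM2 hiding ker
open Vale.Agent.P224.R2.H176 (NearData NearOut)
open Vale.Agent.P224.R2.H869 (BlkS CertS RowP nrmData_of_min)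
open scoped Topology RealInnerProductSpace ContDiff Manifold

set_option linter.unusedSectionVars false

section

variable {V W M : Type*} [NormedAddCommGroup V] [InnerProductSpace ℝ V] [FiniteDimensional ℝ V]
  [NormedAddCommGroup W] [InnerProductSpace ℝ W] [FiniteDimensional ℝ W]
  [TopologicalSpace M] [ChartedSpace V M]
  [MeasurableSpace V] [BorelSpace V] [MeasurableSpace M] [BorelSpace M]
  [MeasurableSpace W] [BorelSpace W] [IsManifold 𝓘(ℝ, V) ∞ M]
  [CompactSpace M] [T2Space M]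

/-- **the relative tail of a certificate** in the form of the near range -/
theorem relU_cert [Nonempty M] {B : BlkS} (C : CertS B)
    (hW : finrank ℝ W = finrank ℝ V + 2)
    {F : M → W} (hF : SphImm V F) (hmin : ∀ x n, IsUnitNormal V F x n → meanCurv V F x n = 0)
    (hm1 : B.m1 ≤ finrank ℝ V) (hm2 : B.m2 = 0 ∨ finrank ℝ V ≤ B.m2) {ν : ℝ}
    (hP : ∀ (N : M → W) (b : OrthonormalBasis (Fin (finrank ℝ W)) ℝ W)
      (j : Fin (finrank ℝ W) → ℝ), NearData V F N b j ν →
      RowP V F N (Vale.Agent.P224.R2.H662.dop b j) C.lam C.eta C.C1)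
    {ab : ℚ} {n1 : ℕ} {x : ℚ} (hab : absOKg 200 wR n1 x (lcG kR B.c1 B.c2) ab = true)
    (h17 : 17 ≤ n1) (hn1 : n1 ≤ finrank ℝ V) (hx : (x : ℝ) ≤ 1 / finrank ℝ V)
    (hc2 : 0 ≤ B.c2) (hcab : ab ≤ C.ab) :
    H925.RelU B.c1 B.c2 V W M [(C.kap, C.rel)] ν (finrank ℝ V) F := by
  have hfin : IsFiniteMeasure (volM V F) := isFiniteMeasure_volM hF
  have hnt : Nontrivial W := by
    apply Module.nontrivial_of_finrank_pos (R := ℝ)
    omega
  intro N b j hd k hk hj
  rw [List.mem_singleton] at hk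
  subst hk
  refine C.relTail (nrmData_of_min (by omega) hW hF hmin hd.smooth hd.unit) b hd.lsq hm1 hm2
    (hP N b j hd) (fun T hT => ?_) (fun T hT => ?_)
    (absTail_mono (abs_X hW hF hmin hd.smooth hd.unit rfl hab h17 hn1 hx hc2)
      ((Rat.cast_le (K := ℝ)).2 hcab)) hj
  · rw [lamX_mul hT]
    exact le_max_left _ _
  · rw [lamX_mul hT]
    exact le_max_right _ _

end

end Vale.Agent.P224.R2.H577
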